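import Vale.Agent.P195.Main

namespace Vale.Agent.Results.P195.RadCube

open CategoryTheory Abelian Vale.Agent.P195

universe u v

/-- The Auslander-Reiten conjecture for Artin algebras with radical cube zero: if `R` is an Artin
`k`-algebra (`k` a commutative Artinian ring, `R` finitely generated as a `k`-module) whose
Jacobson radical has cube zero, and `M` is a finitely generated `R`-module with
`Ext^i(M,M) = 0 = Ext^i(M,R)` for all `i ≥ 1`, then `M` is projective. -/
theorem result {k : Type v} [CommRing k] [IsArtinianRing k]
    {R : Type u} [Ring R] [Algebra k R] [Module.Finite k R]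
    (hJ : Ring.jacobson R ^ 3 = ⊥)
    (M : ModuleCat.{u} R) [Module.Finite R M]
    (hMM : ∀ i : ℕ, 1 ≤ i → Subsingleton (Ext M M i))
    (hMR : ∀ i : ℕ, 1 ≤ i → Subsingleton (Ext M (ModuleCat.of R R) i)) :
    Module.Projective R M := by
  have : IsArtinianRing R := IsArtinianRing.of_finite k R
  let _ : ∀ X : ModuleCat.{u} R, Module k X := fun X => Module.compHom X (algebraMap k R)
  have _ : ∀ X : ModuleCat.{u} R, IsScalarTower k R X := fun X =>
    ⟨fun a b x => by
      rw [Algebra.smul_def, mul_smul]
      rfl⟩
  let M₀ : {X : ModuleCat.{u} R // Module.Finite R X} := ⟨M, inferInstance⟩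
  obtain ⟨n, S, hS0, hS⟩ := simple_fin.{u, u} R
  refine main_abstract M₀ k (fun i => hMM (i + 1) (by omega)) (fun i => hMR (i + 1) (by omega))
    S (fun b => ?_)
  have h0 := (syz M₀ (b + 1)).2
  have hfl : IsFiniteLength R (radSyz M₀ (b + 1)) := by
    rw [isFiniteLength_iff_isNoetherian_isArtinian]
    exact ⟨inferInstance, inferInstance⟩
  have htor : Module.IsTorsionBySet R (radSyz M₀ (b + 1)) (Ring.jacobson R) := by
    have hP : Ring.jacobson R • (radSyz M₀ (b + 1)) = ⊥ := by
      have h1 := (pic_spec (syz M₀ b)).2.2.2
      set K := LinearMap.ker (pic (syz M₀ b)) with hK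
      have h2 : Ring.jacobson R • (Ring.jacobson R • (⊤ : Submodule R K)) = ⊥ := by
        have h3 : (Ring.jacobson R • (Ring.jacobson R • (⊤ : Submodule R K))).map K.subtype = ⊥ := by
          rw [Submodule.map_smul'', Submodule.map_smul'', Submodule.map_subtype_top, eq_bot_iff]
          calc Ring.jacobson R • Ring.jacobson R • K
              ≤ Ring.jacobson R • Ring.jacobson R • Ring.jacobson R •
                  (⊤ : Submodule R (Pc (syz M₀ b))) :=
                Submodule.smul_mono le_rfl (Submodule.smul_mono le_rfl h1)
            _ = (Ring.jacobson R ^ 3) • (⊤ : Submodule R (Pc (syz M₀ b))) := by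
                rw [Submodule.pow_succ, Submodule.pow_succ, Submodule.pow_one,
                  Submodule.mul_smul, Submodule.mul_smul]
            _ ≤ ⊥ := by rw [hJ, Submodule.bot_smul]
        exact Submodule.map_injective_of_injective K.injective_subtype
          (h3.trans (Submodule.map_bot _).symm)
      exact h2
    intro x r
    have hmem : (r : R) • (x : (syz M₀ (b + 1)).1) ∈ Ring.jacobson R • (radSyz M₀ (b + 1)) :=
      Submodule.smul_mem_smul r.2 x.2
    rw [hP] at hmem
    exact Subtype.ext hmem
  have hss : IsSemisimpleModule R (radSyz M₀ (b + 1)) := semisimple_of_torsion _ htor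
  obtain ⟨c, hc⟩ := express_semisimple.{u, v, u} k R S hS0 hS (radSyz M₀ (b + 1)) hfl
  exact ⟨c, fun A hA => hc A⟩

end Vale.Agent.Results.P195.RadCube
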