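import Vale.Agent.P195.RepFin

namespace Vale.Agent.Results.P195.RadPower

open CategoryTheory Abelian Vale.Agent.P195

universe u v

/-- The Auslander-Reiten conjecture for every Artin algebra `R` with `(rad R)^(n+2) = 0` and
`R / (rad R)^n` representation-finite. The case `n = 1` is the case `(rad R)^3 = 0`. -/
theorem result {k : Type v} [CommRing k] [IsArtinianRing k]
    {R : Type u} [Ring R] [Algebra k R] [Module.Finite k R]
    (n : ℕ) (hJ : Ring.jacobson R ^ (n + 2) = ⊥)
    (hfin : RepFinite (R ⧸ Ring.jacobson R ^ n))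
    (M : ModuleCat.{u} R) [Module.Finite R M]
    (hMM : ∀ i : ℕ, 1 ≤ i → Subsingleton (Ext M M i))
    (hMR : ∀ i : ℕ, 1 ≤ i → Subsingleton (Ext M (ModuleCat.of R R) i)) :
    Module.Projective R M := by
  have : IsArtinianRing R := IsArtinianRing.of_finite k R
  exact arc_of_radTorsionlessFinite (k := k) (Ring.jacobson R ^ (n + 1))
    (by rw [← Submodule.pow_succ]; exact hJ)
    (radTorsionlessFinite_of_repFinite n hfin) M hMM hMR

end Vale.Agent.Results.P195.RadPower
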