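import Vale.Agent.P195.RadFin

namespace Vale.Agent.Results.P195.RadTorsionlessQuotient

open CategoryTheory Abelian Vale.Agent.P195

universe u v

/-- The Auslander-Reiten conjecture for every Artin algebra `R` which has a two-sided ideal `I`
with `I * rad R = 0` such that only finitely many indecomposable modules (up to isomorphism) occur
as submodules of the modules `rad ((R/I)^m)`, `m ≥ 0`. -/
theorem result {k : Type v} [CommRing k] [IsArtinianRing k]
    {R : Type u} [Ring R] [Algebra k R] [Module.Finite k R]
    (I : Ideal R) [I.IsTwoSided] (hI : I * Ring.jacobson R = ⊥)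
    (hfin : RadTorsionlessFinite R I)
    (M : ModuleCat.{u} R) [Module.Finite R M]
    (hMM : ∀ i : ℕ, 1 ≤ i → Subsingleton (Ext M M i))
    (hMR : ∀ i : ℕ, 1 ≤ i → Subsingleton (Ext M (ModuleCat.of R R) i)) :
    Module.Projective R M :=
  arc_of_radTorsionlessFinite (k := k) I hI hfin M hMM hMR

end Vale.Agent.Results.P195.RadTorsionlessQuotient
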